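import Mathlib.Algebra.Ring.Subring.Basic
import Mathlib.Algebra.BigOperators.Ring.Finset
import Mathlib.Algebra.Ring.Pi
import Mathlib.Data.ZMod.Basic
import Mathlib.Algebra.BigOperators.Pi
import Mathlib.Tactic.Ring

/-!
Marks and gauge for a class of functions of words (newest letter first) which is closed under
`tail` and under the operator `at`: value at the point `i` letters after the last cut.
-/

namespace Vale.Agent.P329.H100

open Finset

variable {α : Type*} {R : Type*} [CommRing R]

/-- The iterated star: marks `k`, newest letter first. -/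
def TL (k G : List α → R) : List α → R
  | [] => 0
  | b :: X => TL k G X + k (b :: X) * G X

open Classical in
/-- Number of letters after the last cut. -/
noncomputable def since (c : List α → Prop) : List α → Option ℕ
  | [] => none
  | b :: X => if c (b :: X) then some 0 else (since c X).map (· + 1)

open Classical in
/-- Value of `f` at the point which is `i` letters after the last cut (`0` if there is none). -/
noncomputable def atc (c : List α → Prop) (i : ℕ) (f : List α → R) : List α → R
  | [] => 0
  | b :: X => if since c (b :: X) = some i then f (b :: X)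
      else if c (b :: X) then 0 else atc c i f X

variable {c : List α → Prop}

theorem since_cut {b : α} {X : List α} (h : c (b :: X)) : since c (b :: X) = some 0 := by
  simp [since, h]

theorem since_not {b : α} {X : List α} (h : ¬ c (b :: X)) :
    since c (b :: X) = (since c X).map (· + 1) := by
  simp [since, h]

theorem since_zero_iff {b : α} {X : List α} : since c (b :: X) = some 0 ↔ c (b :: X) := by
  constructor
  · intro h
    by_contra hc
    rw [since_not hc] at h
    cases hX : since c X with
    | none => rw [hX] at h; simp at h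
    | some k => rw [hX] at h; simp at h
  · exact since_cut

/-- A cut among the last suffixes is seen by `since`. -/
theorem since_of_cut (hc0 : ¬ c []) : ∀ (i : ℕ) (X : List α), c (List.tail^[i] X) →
    ∃ k ≤ i, since c X = some k := by
  intro i
  induction i with
  | zero =>
    intro X h
    cases X with
    | nil => exact absurd h hc0
    | cons b X => exact ⟨0, le_refl _, since_cut h⟩
  | succ i ih =>
    intro X h
    cases X with
    | nil =>
      have : List.tail^[i + 1] ([] : List α) = [] := by
        rw [Function.iterate_succ_apply]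
        clear ih h
        induction i with
        | zero => rfl
        | succ i ih => rw [Function.iterate_succ_apply]; exact ih
      rw [this] at h
      exact absurd h hc0
    | cons b X =>
      by_cases hb : c (b :: X)
      · exact ⟨0, Nat.zero_le _, since_cut hb⟩
      · rw [Function.iterate_succ_apply] at h
        obtain ⟨k, hk, hs⟩ := ih X h
        exact ⟨k + 1, by omega, by rw [since_not hb, hs]; rfl⟩

/-- Before the `i`-th letter after the last cut the value is `0`. -/
theorem atc_lt (i : ℕ) (f : List α → R) : ∀ (X : List α) (k : ℕ), since c X = some k → k < i →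
    atc c i f X = 0 := by
  intro X
  induction X with
  | nil => intro k _ _; rfl
  | cons b X ih =>
    intro k hk hki
    unfold atc
    rw [if_neg (by rw [hk]; intro h; simp at h; omega)]
    by_cases hb : c (b :: X)
    · rw [if_pos hb]
    · rw [if_neg hb]
      rw [since_not hb] at hk
      cases hX : since c X with
      | none => rw [hX] at hk; simp at hk
      | some j =>
        rw [hX] at hk
        simp at hk
        exact ih j hX (by omega)

theorem atc_cut {i : ℕ} {f : List α → R} {b : α} {X : List α} (h : c (b :: X)) :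
    atc c (i + 1) f (b :: X) = 0 := atc_lt _ _ _ 0 (since_cut h) (by omega)

theorem atc_zero_cut {f : List α → R} {b : α} {X : List α} (h : c (b :: X)) :
    atc c 0 f (b :: X) = f (b :: X) := by
  unfold atc
  rw [if_pos (since_cut h)]

open Classical in
theorem atc_succ_not {i : ℕ} {f : List α → R} {b : α} {X : List α} (h : ¬ c (b :: X)) :
    atc c (i + 1) f (b :: X)
      = atc c (i + 1) f X + if since c (b :: X) = some (i + 1) then f (b :: X) else 0 := by
  by_cases hs : since c (b :: X) = some (i + 1)
  · rw [if_pos hs]
    have hX : since c X = some i := by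
      rw [since_not h] at hs
      cases hX : since c X with
      | none => rw [hX] at hs; simp at hs
      | some j => rw [hX] at hs; simp at hs; rw [hs]
    rw [atc_lt (i + 1) f X i hX (by omega), zero_add]
    conv_lhs => unfold atc
    rw [if_pos hs]
  · rw [if_neg hs, add_zero]
    conv_lhs => unfold atc
    rw [if_neg hs, if_neg h]

theorem atc_zero_not {f : List α → R} {b : α} {X : List α} (h : ¬ c (b :: X)) :
    atc c 0 f (b :: X) = atc c 0 f X := by
  conv_lhs => unfold atc
  rw [if_neg (fun hs => h (since_zero_iff.1 hs)), if_neg h]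

open Classical in
/-- MARKS, pointwise: if every mark of `k` has a cut among its last `J + 1` suffixes then
`TL k G` is a label sum plus a local function. -/
theorem marks_eq (hc0 : ¬ c []) (k G : List α → R) (J : ℕ)
    (hk : ∀ X, k X ≠ 0 → ∃ i < J + 1, c (List.tail^[i] X)) (X : List α) :
    TL k G X = TL (fun Y => (if c Y then 1 else 0) * (k Y * G Y.tail
        + ∑ i ∈ range J, atc c (i + 1) (fun Z => k Z * G Z.tail) Y.tail)) 1 X
      + ∑ i ∈ range J, atc c (i + 1) (fun Z => k Z * G Z.tail) X := by
  induction X with
  | nil => simp [TL, atc]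
  | cons b X ih =>
    unfold TL
    rw [ih]
    by_cases hb : c (b :: X)
    · have h0 : ∑ i ∈ range J, atc c (i + 1) (fun Z => k Z * G Z.tail) (b :: X) = 0 :=
        sum_eq_zero fun i _ => atc_cut hb
      rw [h0, if_pos hb]
      simp only [Pi.one_apply, List.tail_cons]
      ring
    · rw [if_neg hb]
      have h1 : ∑ i ∈ range J, atc c (i + 1) (fun Z => k Z * G Z.tail) (b :: X)
          = ∑ i ∈ range J, atc c (i + 1) (fun Z => k Z * G Z.tail) X
            + k (b :: X) * G X := by
        rw [sum_congr rfl fun i _ => atc_succ_not (i := i)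
          (f := fun Z => k Z * G Z.tail) hb, sum_add_distrib]
        congr 1
        by_cases hz : k (b :: X) = 0
        · simp [hz]
        · obtain ⟨i, hi, hci⟩ := hk _ hz
          obtain ⟨j, hj, hs⟩ := since_of_cut hc0 i _ hci
          have hj0 : j ≠ 0 := by
            rintro rfl
            exact hb (since_zero_iff.1 hs)
          obtain ⟨l, rfl⟩ : ∃ l, j = l + 1 := ⟨j - 1, by omega⟩
          rw [sum_eq_single_of_mem l (mem_range.2 (by omega))]
          · rw [if_pos hs]; rfl
          · intro l' _ hne
            rw [if_neg]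
            rw [hs]
            intro h
            simp at h
            exact hne h.symm
      rw [h1]
      simp only [Pi.one_apply]
      ring

open Classical in
/-- GAUGE, pointwise. -/
theorem gauge_eq (φ Ψ : List α → R) (hφ : ∀ X, ¬ c X → φ X = 0) (X : List α) :
    TL φ 1 X = TL (fun Y => (if c Y then 1 else 0) * (φ Y - (Ψ Y - atc c 0 Ψ Y.tail))) 1 X
      + atc c 0 Ψ X := by
  induction X with
  | nil => simp [TL, atc]
  | cons b X ih =>
    unfold TL
    rw [ih]
    by_cases hb : c (b :: X)
    · rw [if_pos hb, atc_zero_cut hb]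
      simp only [Pi.one_apply, List.tail_cons]
      ring
    · rw [if_neg hb, atc_zero_not hb, hφ _ hb]
      simp

open Classical in
/-- MARKS for a class of functions. -/
theorem marks (A : Subring (List α → R)) (hc0 : ¬ c [])
    (hcA : (fun X => if c X then (1 : R) else 0) ∈ A)
    (htail : ∀ f ∈ A, (fun X : List α => f X.tail) ∈ A)
    (hat : ∀ i, ∀ f ∈ A, atc c i f ∈ A)
    {k G : List α → R} (hk : k ∈ A) (hG : G ∈ A) (J : ℕ)
    (hJ : ∀ X, k X ≠ 0 → ∃ i < J, c (List.tail^[i] X)) :
    ∃ g ∈ A, (∀ X, ¬ c X → g X = 0) ∧ ∃ G' ∈ A, TL k G = TL g 1 + G' := by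
  have hm : (fun Z : List α => k Z * G Z.tail) ∈ A := A.mul_mem hk (htail G hG)
  refine ⟨fun Y => (if c Y then 1 else 0) * (k Y * G Y.tail
        + ∑ i ∈ range J, atc c (i + 1) (fun Z => k Z * G Z.tail) Y.tail), ?_, ?_,
    fun X => ∑ i ∈ range J, atc c (i + 1) (fun Z => k Z * G Z.tail) X, ?_, ?_⟩
  · refine A.mul_mem hcA (A.add_mem hm ?_)
    have : (fun Y : List α => ∑ i ∈ range J, atc c (i + 1) (fun Z => k Z * G Z.tail) Y.tail)
        = ∑ i ∈ range J, fun Y : List α => atc c (i + 1) (fun Z => k Z * G Z.tail) Y.tail := by
      funext Y; simp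
    rw [this]
    exact A.sum_mem fun i _ => htail _ (hat _ _ hm)
  · intro X hX
    simp [hX]
  · have : (fun X : List α => ∑ i ∈ range J, atc c (i + 1) (fun Z => k Z * G Z.tail) X)
        = ∑ i ∈ range J, atc c (i + 1) (fun Z => k Z * G Z.tail) := by
      funext Y; simp
    rw [this]
    exact A.sum_mem fun i _ => hat _ _ hm
  · funext X
    exact marks_eq hc0 k G J (fun X hX => by
      obtain ⟨i, hi, h⟩ := hJ X hX
      exact ⟨i, by omega, h⟩) X

open Classical in
/-- GAUGE for a class of functions. -/
theorem gauge (A : Subring (List α → R))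
    (hcA : (fun X => if c X then (1 : R) else 0) ∈ A)
    (htail : ∀ f ∈ A, (fun X : List α => f X.tail) ∈ A)
    (hat : ∀ i, ∀ f ∈ A, atc c i f ∈ A)
    {φ Ψ : List α → R} (hφA : φ ∈ A) (hφ : ∀ X, ¬ c X → φ X = 0) (hΨ : Ψ ∈ A) :
    ∃ φ' ∈ A, (∀ X, ¬ c X → φ' X = 0) ∧ (∀ X, c X → φ' X = φ X - (Ψ X - atc c 0 Ψ X.tail)) ∧
      atc c 0 Ψ ∈ A ∧ TL φ 1 = TL φ' 1 + atc c 0 Ψ := by
  refine ⟨fun Y => (if c Y then 1 else 0) * (φ Y - (Ψ Y - atc c 0 Ψ Y.tail)), ?_, ?_, ?_,
    hat 0 Ψ hΨ, ?_⟩
  · exact A.mul_mem hcA (A.sub_mem hφA (A.sub_mem hΨ (htail _ (hat 0 Ψ hΨ))))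
  · intro X hX; simp [hX]
  · intro X hX; simp [hX]
  · funext X
    exact gauge_eq φ Ψ hφ X

theorem TL_add_left (k k' G : List α → R) (X : List α) :
    TL (k + k') G X = TL k G X + TL k' G X := by
  induction X with
  | nil => simp [TL]
  | cons b X ih => unfold TL; rw [ih]; simp only [Pi.add_apply]; ring

theorem TL_add_right (k G G' : List α → R) (X : List α) :
    TL k (G + G') X = TL k G X + TL k G' X := by
  induction X with
  | nil => simp [TL]
  | cons b X ih => unfold TL; rw [ih]; simp only [Pi.add_apply]; ring

theorem TL_smul_right (r : R) (k G : List α → R) (X : List α) :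
    TL k (r • G) X = r * TL k G X := by
  induction X with
  | nil => simp [TL]
  | cons b X ih => unfold TL; rw [ih]; simp only [Pi.smul_apply, smul_eq_mul]; ring

end Vale.Agent.P329.H100
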