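import Vale.Agent.P329.H259.Base
import Vale.Agent.P329.H100.Marks

/-!
Closures of the class `Lc w` (helper962's form of the functions which are local over the cuts
`w ≠ 0`; newest letter first).
-/

namespace Vale.Agent.P329.H100

open H259 (pw pw_zero pw_succ pw_one pw_add pw_succ' pw_mul pw_length)

variable {α : Type} {R : Type} 

/-- Finitely many residuals. -/
def FS (f : List α → R) : Prop := (Set.range fun X : List α => fun Y : List α => f (Y ++ X)).Finite

section defs
variable [Zero R]

/-- No cut strictly after `X` through `V`. -/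
def Unc (w : List α → R) (V X : List α) : Prop := ∀ B, B ≠ [] → B <:+ V → w (B ++ X) = 0

/-- Aperiodic along cut-free powers. -/
def AP (w : List α → R) {S : Type} (G : List α → S) : Prop :=
  ∀ v : List α, ∃ N : ℕ, ∀ n ≥ N, ∀ X Y : List α, Unc w (pw v n) X →
    G (Y ++ pw v n ++ X) = G (Y ++ pw v (n + 1) ++ X)

open Classical in
/-- Number of cuts strictly after `c` through `S`. -/
noncomputable def nc (w : List α → R) : List α → List α → ℕ
  | [], _ => 0
  | b :: S, c => nc w S c + if w (b :: S ++ c) ≠ 0 then 1 else 0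

/-- Memory `n`. -/
def Mem (w : List α → R) (n : ℕ) {S : Type} (G : List α → S) : Prop :=
  ∀ c c' V : List α, w c ≠ 0 → w c' ≠ 0 → n ≤ nc w V c → G (V ++ c) = G (V ++ c')

/-- Right of the last cut only. -/
def Rt (w : List α → R) {S : Type} (f : List α → S) : Prop :=
  ∀ c c' r : List α, w c ≠ 0 → w c' ≠ 0 → r ≠ [] → f (r ++ c) = f (r ++ c')

/-- Local functions over the cuts. -/
def Lc (w : List α → R) {S : Type} (G : List α → S) : Prop := FS G ∧ AP w G ∧ ∃ n, Mem w n G

end defs

theorem FS.of_key {S K : Type} {G : List α → S} (κ : List α → K) (hf : (Set.range κ).Finite)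
    (h : ∀ X X', κ X = κ X' → ∀ Y, G (Y ++ X) = G (Y ++ X')) : FS G := by
  have hfac : ∃ e : K → (List α → S), ∀ k ∈ Set.range κ, ∀ X, κ X = k →
      (fun Y => G (Y ++ X)) = e k := by
    classical
    refine ⟨fun k => if hk : ∃ a, κ a = k then fun Y => G (Y ++ hk.choose) else fun _ => G [],
      ?_⟩
    intro k hk X hX
    have hk' : ∃ a, κ a = k := hk
    have hspec : κ hk'.choose = k := hk'.choose_spec
    have e1 : (fun k => if hk : ∃ a, κ a = k then fun Y => G (Y ++ hk.choose) else fun _ => G [])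
        k = fun Y => G (Y ++ hk'.choose) := dif_pos hk'
    rw [e1]
    funext Y
    exact h X _ (hX.trans hspec.symm) Y
  obtain ⟨e, he⟩ := hfac
  refine (hf.image e).subset ?_
  rintro _ ⟨X, rfl⟩
  exact ⟨κ X, ⟨X, rfl⟩, (he _ ⟨X, rfl⟩ X rfl).symm⟩

theorem FS.comp {S S' : Type} {G : List α → S} (hG : FS G) (Φ : S → S') :
    FS (fun X => Φ (G X)) :=
  FS.of_key (fun X : List α => fun Y : List α => G (Y ++ X)) hG fun X X' h Y => by
    exact congrArg Φ (congrFun h Y)

theorem FS.prod {S S' : Type} {G : List α → S} {G' : List α → S'} (hG : FS G) (hG' : FS G') :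
    FS (fun X => (G X, G' X)) := by
  refine FS.of_key (fun X : List α => ((fun Y : List α => G (Y ++ X)), fun Y : List α => G' (Y ++ X)))
    ((Set.Finite.prod hG hG').subset ?_) ?_
  · rintro _ ⟨X, rfl⟩
    exact ⟨⟨X, rfl⟩, ⟨X, rfl⟩⟩
  · intro X X' h Y
    have h1 : G (Y ++ X) = G (Y ++ X') := congrFun (Prod.ext_iff.1 h).1 Y
    have h2 : G' (Y ++ X) = G' (Y ++ X') := congrFun (Prod.ext_iff.1 h).2 Y
    rw [h1, h2]

theorem FS.range_finite {S : Type} {G : List α → S} (hG : FS G) : (Set.range G).Finite := by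
  refine (Set.Finite.image (fun F : List α → S => F []) hG).subset ?_
  rintro _ ⟨X, rfl⟩
  exact ⟨_, ⟨X, rfl⟩, rfl⟩

theorem FS.tail {S : Type} {G : List α → S} (hG : FS G) : FS (fun X => G X.tail) := by
  refine FS.of_key (fun X : List α => ((fun Y : List α => G (Y ++ X)), G X.tail))
    ((Set.Finite.prod hG hG.range_finite).subset ?_) ?_
  · rintro _ ⟨X, rfl⟩
    exact ⟨⟨X, rfl⟩, ⟨X.tail, rfl⟩⟩
  · intro X X' h Y
    cases Y with
    | nil => exact (Prod.ext_iff.1 h).2
    | cons b Y => exact congrFun (Prod.ext_iff.1 h).1 Y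

theorem FS.const {S : Type} (s : S) : FS (fun _ : List α => s) :=
  FS.of_key (fun _ : List α => ()) (Set.toFinite _) fun _ _ _ _ => rfl

section main
variable [Zero R] {w : List α → R}

theorem Unc.mono {V V' X : List α} (h : Unc w V X) (hs : V' <:+ V) : Unc w V' X :=
  fun B hB hBV => h B hB (hBV.trans hs)

theorem pw_suffix (v : List α) {m n : ℕ} (h : m ≤ n) : pw v m <:+ pw v n := by
  obtain ⟨k, rfl⟩ := Nat.exists_eq_add_of_le' h
  exact ⟨pw v k, (pw_add v k m).symm⟩

theorem AP.comp {S S' : Type} {G : List α → S} (hG : AP w G) (Φ : S → S') :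
    AP w (fun X => Φ (G X)) := by
  intro v
  obtain ⟨N, hN⟩ := hG v
  exact ⟨N, fun n hn X Y hU => congrArg Φ (hN n hn X Y hU)⟩

theorem AP.prod {S S' : Type} {G : List α → S} {G' : List α → S'} (hG : AP w G) (hG' : AP w G') :
    AP w (fun X => (G X, G' X)) := by
  intro v
  obtain ⟨N, hN⟩ := hG v
  obtain ⟨N', hN'⟩ := hG' v
  refine ⟨max N N', fun n hn X Y hU => ?_⟩
  simp only
  rw [hN n (le_trans (le_max_left _ _) hn) X Y hU, hN' n (le_trans (le_max_right _ _) hn) X Y hU]

theorem AP.tail {S : Type} {G : List α → S} (hG : AP w G) : AP w (fun X => G X.tail) := by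
  intro v
  cases v with
  | nil =>
    refine ⟨0, fun n _ X Y _ => ?_⟩
    have h0 : ∀ n, pw ([] : List α) n = [] := by
      intro n
      induction n with
      | zero => rfl
      | succ n ih => rw [pw_succ, ih]; rfl
    rw [h0, h0]
  | cons b v =>
    obtain ⟨N, hN⟩ := hG (b :: v)
    refine ⟨N + 1, fun n hn X Y hU => ?_⟩
    obtain ⟨m, rfl⟩ : ∃ m, n = m + 1 := ⟨n - 1, by omega⟩
    cases Y with
    | cons a Y => exact hN (m + 1) (by omega) X Y hU
    | nil =>
      have h := hN m (by omega) X v (hU.mono (pw_suffix _ (Nat.le_succ m)))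
      rw [pw_succ, pw_succ (b :: v) (m + 1)]
      simp only [List.nil_append, List.cons_append, List.tail_cons]
      simpa only [List.append_assoc] using h

open Classical in
theorem nc_cons {V c : List α} {b : α} :
    nc w (b :: V) c = nc w V c + if w (b :: V ++ c) ≠ 0 then 1 else 0 := rfl

theorem nc_le {V c : List α} {b : α} : nc w (b :: V) c ≤ nc w V c + 1 := by
  classical
  rw [nc_cons]
  split_ifs <;> omega

theorem le_nc_cons {V c : List α} {b : α} : nc w V c ≤ nc w (b :: V) c := by
  classical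
  rw [nc_cons]
  omega

theorem Mem.mono {S : Type} {G : List α → S} {n m : ℕ} (h : Mem w n G) (hnm : n ≤ m) :
    Mem w m G := fun c c' V hc hc' hV => h c c' V hc hc' (le_trans hnm hV)

theorem Mem.tail {S : Type} {G : List α → S} {n : ℕ} (h : Mem w n G) :
    Mem w (n + 1) (fun X => G X.tail) := by
  intro c c' V hc hc' hV
  cases V with
  | nil => simp [nc] at hV
  | cons b V => exact h c c' V hc hc' (by have := nc_le (w := w) (V := V) (c := c) (b := b); omega)

theorem Rt.mem {S : Type} {f : List α → S} (h : Rt w f) : Mem w 1 f := by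
  intro c c' V hc hc' hV
  cases V with
  | nil => simp [nc] at hV
  | cons b V => exact h c c' _ hc hc' (by simp)

theorem Lc.comp {S S' : Type} {G : List α → S} (hG : Lc w G) (Φ : S → S') :
    Lc w (fun X => Φ (G X)) :=
  ⟨hG.1.comp Φ, hG.2.1.comp Φ, by
    obtain ⟨n, hn⟩ := hG.2.2
    exact ⟨n, fun c c' V hc hc' hV => congrArg Φ (hn c c' V hc hc' hV)⟩⟩

theorem Lc.prod {S S' : Type} {G : List α → S} {G' : List α → S'} (hG : Lc w G) (hG' : Lc w G') :
    Lc w (fun X => (G X, G' X)) :=
  ⟨hG.1.prod hG'.1, hG.2.1.prod hG'.2.1, by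
    obtain ⟨n, hn⟩ := hG.2.2
    obtain ⟨n', hn'⟩ := hG'.2.2
    refine ⟨max n n', fun c c' V hc hc' hV => ?_⟩
    simp only
    rw [hn.mono (le_max_left _ _) c c' V hc hc' hV, hn'.mono (le_max_right _ _) c c' V hc hc' hV]⟩

theorem Lc.const {S : Type} (s : S) : Lc w (fun _ : List α => s) :=
  ⟨FS.const s, fun _ => ⟨0, fun _ _ _ _ _ => rfl⟩, 0, fun _ _ _ _ _ _ => rfl⟩

theorem Lc.tail {S : Type} {G : List α → S} (hG : Lc w G) : Lc w (fun X => G X.tail) :=
  ⟨hG.1.tail, hG.2.1.tail, by
    obtain ⟨n, hn⟩ := hG.2.2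
    exact ⟨n + 1, hn.tail⟩⟩

/-! ### the operator `atc` -/

omit [Zero R] in
theorem since_append {c : List α → Prop} {i : ℕ} {X X' : List α}
    (hw : ∀ Y, c (Y ++ X) ↔ c (Y ++ X'))
    (hs : ∀ k ≤ i, since c X = some k ↔ since c X' = some k) (Y : List α) :
    ∀ k ≤ i, since c (Y ++ X) = some k ↔ since c (Y ++ X') = some k := by
  induction Y with
  | nil => exact hs
  | cons b Y ih =>
    intro k hk
    have hb := hw (b :: Y)
    rw [List.cons_append, List.cons_append] at hb ⊢
    by_cases h : c (b :: (Y ++ X))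
    · rw [since_cut h, since_cut (hb.1 h)]
    · rw [since_not h, since_not (fun h' => h (hb.2 h'))]
      cases k with
      | zero => simp
      | succ k =>
        have := ih k (by omega)
        simpa [Option.map_eq_some_iff] using this

theorem atc_append {R : Type} [CommRing R] {c : List α → Prop} {i : ℕ} {f : List α → R}
    {X X' : List α}
    (hw : ∀ Y, c (Y ++ X) ↔ c (Y ++ X'))
    (hs : ∀ k ≤ i, since c X = some k ↔ since c X' = some k)
    (hf : ∀ Y, f (Y ++ X) = f (Y ++ X')) (ha : atc c i f X = atc c i f X') (Y : List α) :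
    atc c i f (Y ++ X) = atc c i f (Y ++ X') := by
  induction Y with
  | nil => exact ha
  | cons b Y ih =>
    have hb := hw (b :: Y)
    have hss := since_append hw hs (b :: Y) i (le_refl i)
    have hff := hf (b :: Y)
    rw [List.cons_append, List.cons_append] at hb hss hff ⊢
    unfold atc
    rw [ih, hff]
    by_cases h1 : since c (b :: (Y ++ X)) = some i
    · rw [if_pos h1, if_pos (hss.1 h1)]
    · rw [if_neg h1, if_neg (fun h => h1 (hss.2 h))]
      by_cases h2 : c (b :: (Y ++ X))
      · rw [if_pos h2, if_pos (hb.1 h2)]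
      · rw [if_neg h2, if_neg (fun h => h2 (hb.2 h))]

end main

section atc
variable {K : Type} [CommRing K] {w : List α → K}

theorem FS.atc (hw : FS w) {f : List α → K} (hf : FS f) (i : ℕ) [Finite K] :
    FS (atc (fun X => w X ≠ 0) i f) := by
  classical
  refine FS.of_key (fun X : List α => ((fun Y : List α => w (Y ++ X)), (fun Y : List α => f (Y ++ X)),
    (fun k : Fin (i + 1) => (decide (since (fun X => w X ≠ 0) X = some k.1) : Bool)),
    H100.atc (fun X => w X ≠ 0) i f X)) ?_ ?_
  · refine ((Set.Finite.prod hw (Set.Finite.prod hf (Set.Finite.prod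
      (Set.finite_univ (α := Fin (i + 1) → Bool)) (Set.finite_univ (α := K))))).subset ?_)
    rintro _ ⟨X, rfl⟩
    exact ⟨⟨X, rfl⟩, ⟨X, rfl⟩, Set.mem_univ _, Set.mem_univ _⟩
  · intro X X' h Y
    obtain ⟨h1, h2, h3, h4⟩ : _ ∧ _ ∧ _ ∧ _ := by
      simpa only [Prod.ext_iff] using h
    refine atc_append (c := fun X => w X ≠ 0) (fun Y => ?_) (fun k hk => ?_)
      (fun Y => congrFun h2 Y) h4 Y
    · have : w (Y ++ X) = w (Y ++ X') := congrFun h1 Y
      simp only [this]
    · have := congrFun h3 ⟨k, by omega⟩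
      simp only [decide_eq_decide] at this
      exact this

/-- Without cuts `since` counts letters. -/
theorem since_unc {c : List α → Prop} {X : List α} : ∀ V : List α,
    (∀ B, B ≠ [] → B <:+ V → ¬ c (B ++ X)) →
    since c (V ++ X) = (since c X).map (· + V.length) := by
  intro V
  induction V with
  | nil => intro _; simp
  | cons b V ih =>
    intro h
    have hb : ¬ c (b :: (V ++ X)) := h (b :: V) (by simp) (List.suffix_refl _)
    rw [List.cons_append, since_not hb, ih fun B hB hBV => h B hB (hBV.trans (List.suffix_cons _ _))]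
    cases since c X <;> simp [Nat.add_assoc]

theorem atc_stay {c : List α → Prop} {i : ℕ} {f : List α → K} {X : List α} : ∀ V : List α,
    (∀ B, B ≠ [] → B <:+ V → ¬ c (B ++ X)) → (∀ k ≤ i, since c X ≠ some k) →
    atc c i f (V ++ X) = atc c i f X := by
  intro V
  induction V with
  | nil => intro _ _; rfl
  | cons b V ih =>
    intro h hs
    have hb : ¬ c (b :: (V ++ X)) := h (b :: V) (by simp) (List.suffix_refl _)
    have hi : since c (b :: (V ++ X)) ≠ some i := by
      rw [← List.cons_append, since_unc (b :: V) h]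
      cases hX : since c X with
      | none => simp
      | some k =>
        simp only [Option.map_some, ne_eq, Option.some.injEq]
        intro hk
        exact hs k (by omega) hX
    rw [List.cons_append]
    conv_lhs => unfold atc
    rw [if_neg hi, if_neg hb]
    exact ih (fun B hB hBV => h B hB (hBV.trans (List.suffix_cons _ _))) hs

theorem AP.atc (hw : AP w w) {f : List α → K} (hf : AP w f) (i : ℕ) :
    AP w (atc (fun X => w X ≠ 0) i f) := by
  intro v
  obtain ⟨N1, hN1⟩ := hw v
  obtain ⟨N2, hN2⟩ := hf v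
  by_cases hv : v = []
  · subst hv
    refine ⟨0, fun n _ X Y _ => ?_⟩
    have h0 : ∀ n, pw ([] : List α) n = [] := by
      intro n
      induction n with
      | zero => rfl
      | succ n ih => rw [pw_succ, ih]; rfl
    rw [h0, h0]
  refine ⟨N1 + N2 + i + 1, fun n hn X Y hU => ?_⟩
  have hlen : 1 ≤ v.length := by
    cases v with
    | nil => exact absurd rfl hv
    | cons _ _ => simp
  -- no cut either in the next block
  have hU2 : ∀ B, B ≠ [] → B <:+ v → w (B ++ (pw v n ++ X)) = 0 := by
    intro B hB hBv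
    obtain ⟨m, rfl⟩ : ∃ m, n = m + 1 := ⟨n - 1, by omega⟩
    have h1 := hN1 m (by omega) X B (hU.mono (pw_suffix _ (Nat.le_succ m)))
    rw [List.append_assoc, List.append_assoc] at h1
    rw [← h1, ← List.append_assoc]
    refine hU _ (by simp [hB]) ?_
    obtain ⟨t, ht⟩ := hBv
    exact ⟨t, by rw [pw_succ, ← List.append_assoc, ht]⟩
  have hs : ∀ k ≤ i, since (fun X => w X ≠ 0) (pw v n ++ X) ≠ some k := by
    intro k hk
    rw [since_unc (pw v n) fun B hB hBV => by simpa using hU B hB hBV]
    cases since (fun X => w X ≠ 0) X with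
    | none => simp
    | some j =>
      simp only [Option.map_some, ne_eq, Option.some.injEq, pw_length]
      have : n * 1 ≤ n * v.length := Nat.mul_le_mul_left _ hlen
      omega
  have hs' : ∀ k ≤ i, since (fun X => w X ≠ 0) (pw v (n + 1) ++ X) ≠ some k := by
    intro k hk
    rw [pw_succ, List.append_assoc, since_unc v fun B hB hBV => by simpa using hU2 B hB hBV]
    cases hX : since (fun X => w X ≠ 0) (pw v n ++ X) with
    | none => simp
    | some j =>
      simp only [Option.map_some, ne_eq, Option.some.injEq]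
      intro h
      exact hs j (by omega) hX
  have key : H100.atc (fun X => w X ≠ 0) i f (pw v n ++ X)
      = H100.atc (fun X => w X ≠ 0) i f (pw v (n + 1) ++ X) := by
    rw [pw_succ, List.append_assoc]
    exact (atc_stay v (fun B hB hBV => by simpa using hU2 B hB hBV) hs).symm
  rw [List.append_assoc, List.append_assoc]
  refine atc_append (c := fun X => w X ≠ 0) (fun Z => ?_) (fun k hk => ?_) (fun Z => ?_) key Y
  · have := hN1 n (by omega) X Z hU
    rw [List.append_assoc, List.append_assoc] at this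
    simp only [this]
  · exact ⟨fun h => absurd h (hs k hk), fun h => absurd h (hs' k hk)⟩
  · have := hN2 n (by omega) X Z hU
    rw [List.append_assoc, List.append_assoc] at this
    exact this

theorem Mem.atc (hw : Rt w w) {f : List α → K} {n : ℕ} (hf : Mem w n f) (i : ℕ) :
    Mem w (max n 1) (atc (fun X => w X ≠ 0) i f) := by
  intro c c' V hc hc' hV
  have key : ∀ V : List α, max n 1 ≤ nc w V c →
      since (fun X => w X ≠ 0) (V ++ c) = since (fun X => w X ≠ 0) (V ++ c') ∧
      H100.atc (fun X => w X ≠ 0) i f (V ++ c) = H100.atc (fun X => w X ≠ 0) i f (V ++ c') := by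
    intro V
    induction V with
    | nil => intro h; simp [nc] at h
    | cons b V ih =>
      intro h
      have hwb : w (b :: (V ++ c)) = w (b :: (V ++ c')) := hw c c' (b :: V) hc hc' (by simp)
      have hfb : f (b :: (V ++ c)) = f (b :: (V ++ c')) := hf c c' (b :: V) hc hc' (by omega)
      rw [List.cons_append, List.cons_append]
      by_cases hcut : w (b :: (V ++ c)) ≠ 0
      · have hcut' : w (b :: (V ++ c')) ≠ 0 := by rwa [← hwb]
        have h1 := since_cut (c := fun X => w X ≠ 0) hcut
        have h2 := since_cut (c := fun X => w X ≠ 0) hcut'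
        refine ⟨by rw [h1, h2], ?_⟩
        unfold H100.atc
        rw [h1, h2, hfb]
        by_cases hi : some 0 = some i
        · rw [if_pos hi, if_pos hi]
        · rw [if_neg hi, if_neg hi, if_pos hcut, if_pos hcut']
      · have hcut' : ¬ w (b :: (V ++ c')) ≠ 0 := by rwa [← hwb]
        have hnc : nc w (b :: V) c = nc w V c := by
          classical
          rw [nc_cons, if_neg (by simpa using hcut), Nat.add_zero]
        obtain ⟨i1, i2⟩ := ih (by omega)
        have h1 := since_not (c := fun X => w X ≠ 0) hcut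
        have h2 := since_not (c := fun X => w X ≠ 0) hcut'
        have h3 : since (fun X => w X ≠ 0) (b :: (V ++ c))
            = since (fun X => w X ≠ 0) (b :: (V ++ c')) := by rw [h1, h2, i1]
        refine ⟨h3, ?_⟩
        unfold H100.atc
        rw [← h3, hfb, i2, if_neg hcut, if_neg hcut']
  exact (key V hV).2

theorem Lc.atc [Finite K] (h1 : FS w) (h2 : AP w w) (h3 : Rt w w) {f : List α → K} (hf : Lc w f)
    (i : ℕ) : Lc w (atc (fun X => w X ≠ 0) i f) :=
  ⟨h1.atc hf.1 i, h2.atc hf.2.1 i, by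
    obtain ⟨n, hn⟩ := hf.2.2
    exact ⟨_, hn.atc h3 i⟩⟩

/-- `Lc w` as a subring. -/
def LcR (w : List α → K) : Subring (List α → K) where
  carrier := {G | Lc w G}
  mul_mem' := fun ha hb => (ha.prod hb).comp fun x => x.1 * x.2
  one_mem' := Lc.const 1
  add_mem' := fun ha hb => (ha.prod hb).comp fun x => x.1 + x.2
  zero_mem' := Lc.const 0
  neg_mem' := fun ha => ha.comp fun x => -x

theorem mem_LcR {G : List α → K} : G ∈ LcR w ↔ Lc w G := Iff.rfl

theorem Lc.self (h1 : FS w) (h2 : AP w w) (h3 : Rt w w) : Lc w w := ⟨h1, h2, 1, h3.mem⟩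

/-- MARKS for the class `Lc w`. -/
theorem Lc.marks [Finite K] (h1 : FS w) (h2 : AP w w) (h3 : Rt w w) (h0 : w [] = 0)
    {k G : List α → K} (hk : Lc w k) (hG : Lc w G) (J : ℕ)
    (hJ : ∀ X, k X ≠ 0 → ∃ i < J, w (List.tail^[i] X) ≠ 0) :
    ∃ g, Lc w g ∧ (∀ X, w X = 0 → g X = 0) ∧ ∃ G', Lc w G' ∧ TL k G = TL g 1 + G' := by
  classical
  obtain ⟨g, hg, hg0, G', hG', h⟩ := H100.marks (c := fun X => w X ≠ 0) (LcR w) (by simp [h0])
    ((Lc.self h1 h2 h3).comp fun x => @ite _ (x ≠ 0) (Classical.propDecidable _) (1 : K) 0)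
    (fun f hf => Lc.tail hf)
    (fun i f hf => Lc.atc h1 h2 h3 hf i) hk hG J hJ
  exact ⟨g, hg, fun X hX => hg0 X (by simp [hX]), G', hG', h⟩

/-- GAUGE for the class `Lc w`. -/
theorem Lc.gauge [Finite K] (h1 : FS w) (h2 : AP w w) (h3 : Rt w w)
    {φ Ψ : List α → K} (hφA : Lc w φ) (hφ : ∀ X, w X = 0 → φ X = 0) (hΨ : Lc w Ψ) :
    ∃ φ', Lc w φ' ∧ (∀ X, w X = 0 → φ' X = 0) ∧
      (∀ X, w X ≠ 0 → φ' X = φ X - (Ψ X - H100.atc (fun X => w X ≠ 0) 0 Ψ X.tail)) ∧
      Lc w (H100.atc (fun X => w X ≠ 0) 0 Ψ) ∧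
      TL φ 1 = TL φ' 1 + H100.atc (fun X => w X ≠ 0) 0 Ψ := by
  classical
  obtain ⟨φ', hφ', h0, hc, hΨ', h⟩ := H100.gauge (c := fun X => w X ≠ 0) (LcR w)
    ((Lc.self h1 h2 h3).comp fun x => @ite _ (x ≠ 0) (Classical.propDecidable _) (1 : K) 0)
    (fun f hf => Lc.tail hf)
    (fun i f hf => Lc.atc h1 h2 h3 hf i) hφA (fun X hX => hφ X (by simpa using hX)) hΨ
  exact ⟨φ', hφ', fun X hX => h0 X (by simp [hX]), fun X hX => hc X hX, hΨ', h⟩

end atc

end Vale.Agent.P329.H100
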