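import Vale.Agent.P329.H962.Rows
import Mathlib.Data.Set.Finite.List
import Mathlib.Data.List.DropRight

/-!
Rows C and E of helper962 in the frozen literal form.
-/

namespace Vale.Agent.P329.H100.R

open Vale.Agent.P329.H962
open H259 (pw pw_zero pw_succ pw_one pw_add pw_succ' pw_mul pw_length)

variable {α A A' : Type} {p : ℕ} {w : List α → ZMod p}

theorem fs_key {S K : Type} {G : List α → S} (κ : List α → K) (hf : (Set.range κ).Finite)
    (h : ∀ X X', κ X = κ X' → ∀ Y, G (Y ++ X) = G (Y ++ X')) : FS G := by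
  have hfac : ∃ e : K → (List α → S), ∀ k ∈ Set.range κ, ∀ X, κ X = k →
      (fun Y => G (Y ++ X)) = e k := by
    classical
    refine ⟨fun k => if hk : ∃ a, κ a = k then fun Y => G (Y ++ hk.choose) else fun _ => G [],
      ?_⟩
    intro k hk X hX
    have hk' : ∃ a, κ a = k := hk
    have hspec : κ hk'.choose = k := hk'.choose_spec
    have e1 : (fun k => if hk : ∃ a, κ a = k then fun Y => G (Y ++ hk.choose) else fun _ => G [])
        k = fun Y => G (Y ++ hk'.choose) := dif_pos hk'
    rw [e1]
    funext Y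
    exact h X _ (hX.trans hspec.symm) Y
  obtain ⟨e, he⟩ := hfac
  refine (Set.Finite.image e hf).subset ?_
  rintro _ ⟨X, rfl⟩
  exact ⟨κ X, ⟨X, rfl⟩, (he _ ⟨X, rfl⟩ X rfl).symm⟩

theorem fs_comp {G : List α → A} (hG : FS G) (Φ : A → A') : FS (fun X => Φ (G X)) :=
  fs_key (fun X : List α => fun Y : List α => G (Y ++ X)) hG fun _ _ h Y =>
    congrArg Φ (congrFun h Y)

theorem fs_prod {G : List α → A} {G' : List α → A'} (hG : FS G) (hG' : FS G') :
    FS (fun X => (G X, G' X)) := by
  refine fs_key (fun X : List α => ((fun Y : List α => G (Y ++ X)), fun Y : List α => G' (Y ++ X)))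
    ((Set.Finite.prod hG hG').subset ?_) ?_
  · rintro _ ⟨X, rfl⟩
    exact ⟨⟨X, rfl⟩, ⟨X, rfl⟩⟩
  · intro X X' h Y
    have h1 : G (Y ++ X) = G (Y ++ X') := congrFun (Prod.ext_iff.1 h).1 Y
    have h2 : G' (Y ++ X) = G' (Y ++ X') := congrFun (Prod.ext_iff.1 h).2 Y
    simp only [h1, h2]

theorem fs_pi {L : ℕ} {G : Fin L → List α → A} (hG : ∀ i, FS (G i)) :
    FS (fun X i => G i X) := by
  refine fs_key (fun (X : List α) (i : Fin L) => fun Y : List α => G i (Y ++ X))
    ((Set.Finite.pi' (t := fun i => Set.range fun X : List α => fun Y : List α => G i (Y ++ X))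
      fun i => hG i).subset ?_) ?_
  · rintro _ ⟨X, rfl⟩ i
    exact ⟨X, rfl⟩
  · intro X X' h Y
    funext i
    exact congrFun (congrFun h i) Y

theorem fs_range {G : List α → A} (hG : FS G) : (Set.range G).Finite := by
  refine (Set.Finite.image (fun F : List α → A => F []) hG).subset ?_
  rintro _ ⟨X, rfl⟩
  exact ⟨_, ⟨X, rfl⟩, rfl⟩

theorem fs_tail {G : List α → A} (hG : FS G) : FS (fun X => G X.tail) := by
  refine fs_key (fun X : List α => ((fun Y : List α => G (Y ++ X)), G X.tail))
    ((Set.Finite.prod hG (fs_range hG)).subset ?_) ?_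
  · rintro _ ⟨X, rfl⟩
    exact ⟨⟨X, rfl⟩, ⟨X.tail, rfl⟩⟩
  · intro X X' h Y
    cases Y with
    | nil => exact (Prod.ext_iff.1 h).2
    | cons b Y => exact congrFun (Prod.ext_iff.1 h).1 Y

theorem pw_nil (n : ℕ) : pw ([] : List α) n = [] := by
  induction n with
  | zero => rfl
  | succ n ih => rw [pw_succ, ih]; rfl

theorem pw_suffix (v : List α) {m n : ℕ} (h : m ≤ n) : pw v m <:+ pw v n := by
  obtain ⟨k, rfl⟩ := Nat.exists_eq_add_of_le' h
  exact ⟨pw v k, (pw_add v k m).symm⟩

theorem unc_mono {V V' X : List α} (h : Unc w V X) (hs : V' <:+ V) : Unc w V' X :=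
  fun B hBV hB => h B (hBV.trans hs) hB

theorem ap_tail {G : List α → A} (hG : AP w G) : AP w (fun X => G X.tail) := by
  intro v
  cases v with
  | nil => exact ⟨0, fun n _ X Y _ => by rw [pw_nil, pw_nil]⟩
  | cons b v =>
    obtain ⟨N, hN⟩ := hG (b :: v)
    refine ⟨N + 1, fun n hn X Y hU => ?_⟩
    obtain ⟨m, rfl⟩ : ∃ m, n = m + 1 := ⟨n - 1, by omega⟩
    cases Y with
    | cons a Y => exact hN (m + 1) (by omega) X Y hU
    | nil =>
      have h := hN m (by omega) X v (unc_mono hU (pw_suffix _ (Nat.le_succ m)))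
      rw [pw_succ, pw_succ (b :: v) (m + 1)]
      simp only [List.nil_append, List.cons_append, List.tail_cons]
      simpa only [List.append_assoc] using h

theorem nc_cons {V c : List α} {b : α} :
    nc w (b :: V) c = nc w V c + if w (b :: (V ++ c)) = 0 then 0 else 1 := rfl

theorem nc_le {V c : List α} {b : α} : nc w (b :: V) c ≤ nc w V c + 1 := by
  rw [nc_cons]
  split_ifs <;> omega

theorem nc_length (V c : List α) : nc w V c ≤ V.length := by
  induction V with
  | nil => simp [nc]
  | cons b V ih => rw [List.length_cons]; have := nc_le (w := w) (V := V) (c := c) (b := b); omega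

theorem lc_comp {G : List α → A} (hG : Lc w G) (Φ : A → A') : Lc w (fun X => Φ (G X)) := by
  refine ⟨fs_comp hG.1 Φ, fun v => ?_, ?_⟩
  · obtain ⟨N, hN⟩ := hG.2.1 v
    exact ⟨N, fun n hn X Y hU => congrArg Φ (hN n hn X Y hU)⟩
  · obtain ⟨n, hn⟩ := hG.2.2
    exact ⟨n, fun c c' V hc hc' hV => congrArg Φ (hn c c' V hc hc' hV)⟩

theorem lc_prod {G : List α → A} {G' : List α → A'} (hG : Lc w G) (hG' : Lc w G') :
    Lc w (fun X => (G X, G' X)) := by
  refine ⟨fs_prod hG.1 hG'.1, fun v => ?_, ?_⟩
  · obtain ⟨N, hN⟩ := hG.2.1 v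
    obtain ⟨N', hN'⟩ := hG'.2.1 v
    refine ⟨max N N', fun n hn X Y hU => ?_⟩
    simp only
    rw [hN n (le_trans (le_max_left _ _) hn) X Y hU, hN' n (le_trans (le_max_right _ _) hn) X Y hU]
  · obtain ⟨n, hn⟩ := hG.2.2
    obtain ⟨n', hn'⟩ := hG'.2.2
    refine ⟨max n n', fun c c' V hc hc' hV => ?_⟩
    simp only
    rw [hn c c' V hc hc' (le_trans (le_max_left _ _) hV),
      hn' c c' V hc hc' (le_trans (le_max_right _ _) hV)]

theorem lc_pi {L : ℕ} {G : Fin L → List α → A} (hG : ∀ i, Lc w (G i)) :
    Lc w (fun X i => G i X) := by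
  refine ⟨fs_pi fun i => (hG i).1, fun v => ?_, ?_⟩
  · choose N hN using fun i => (hG i).2.1 v
    refine ⟨Finset.univ.sup N, fun n hn X Y hU => ?_⟩
    funext i
    exact hN i n (le_trans (Finset.le_sup (Finset.mem_univ i)) hn) X Y hU
  · choose N hN using fun i => (hG i).2.2
    refine ⟨Finset.univ.sup N, fun c c' V hc hc' hV => ?_⟩
    funext i
    exact hN i c c' V hc hc' (le_trans (Finset.le_sup (Finset.mem_univ i)) hV)

theorem lc_tail {G : List α → A} (hG : Lc w G) : Lc w (fun X => G X.tail) := by
  refine ⟨fs_tail hG.1, ap_tail hG.2.1, ?_⟩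
  obtain ⟨n, hn⟩ := hG.2.2
  refine ⟨n + 1, fun c c' V hc hc' hV => ?_⟩
  cases V with
  | nil => simp [nc] at hV
  | cons b V => exact hn c c' V hc hc' (by have := nc_le (w := w) (V := V) (c := c) (b := b); omega)

theorem lc_drop {G : List α → A} (hG : Lc w G) (k : ℕ) : Lc w (fun X => G (X.drop k)) := by
  induction k with
  | zero => simpa using hG
  | succ k ih =>
    have h := lc_tail ih
    have e : (fun X : List α => G (X.drop (k + 1))) = fun X => G (X.tail.drop k) := by
      funext X
      cases X <;> simp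
    rw [e]
    exact h

theorem lc_take [Finite α] (J : ℕ) : Lc w (fun X : List α => X.take J) := by
  refine ⟨?_, fun v => ?_, J, fun c c' V _ _ hV => ?_⟩
  · refine fs_key (fun X : List α => X.take J) ?_ ?_
    · refine (List.finite_length_le α J).subset ?_
      rintro _ ⟨X, rfl⟩
      exact List.length_take_le J X
    · intro X X' h Y
      change X.take J = X'.take J at h
      rw [List.take_append, List.take_append]
      congr 1
      have : ∀ k ≤ J, X.take k = X'.take k := by
        intro k hk
        have := congrArg (List.take k) h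
        rwa [List.take_take, List.take_take, min_eq_left hk] at this
      exact this _ (by omega)
  · by_cases hv : v = []
    · subst hv
      exact ⟨0, fun n _ X Y _ => by rw [pw_nil, pw_nil]⟩
    · refine ⟨J, fun n hn X Y _ => ?_⟩
      have hlen : 1 ≤ v.length := by
        cases v with
        | nil => exact absurd rfl hv
        | cons _ _ => simp
      have hl : J ≤ (Y ++ pw v n).length := by
        rw [List.length_append, pw_length]
        have : n * 1 ≤ n * v.length := Nat.mul_le_mul_left _ hlen
        omega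
      simp only
      rw [← List.append_assoc, List.take_append_of_le_length hl, pw_succ', List.append_assoc,
        ← List.append_assoc, List.take_append_of_le_length hl]
  · have := nc_length (w := w) V c
    simp only
    rw [List.take_append_of_le_length (by omega), List.take_append_of_le_length (by omega)]

theorem rt_mem {f : List α → A} (h : Rt w f) : Mem w 1 f := by
  intro c c' V hc hc' hV
  cases V with
  | nil => simp [nc] at hV
  | cons b V => exact h c c' _ hc hc' (by simp)

theorem unt_lc {h : List α → ZMod p} (hh : Unt w h) : Lc w h := ⟨hh.fs, hh.ap, 1, rt_mem hh.rt⟩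

theorem stg_unt (hw : Stg w) : Unt w w := ⟨fun _ h => h, hw.fs, hw.ap, hw.rt, hw.ch⟩

theorem lc_len (L : ℕ) : Lc w (fun X : List α => decide (L ≤ X.length)) := by
  refine ⟨?_, fun v => ?_, L, fun c c' V _ _ hV => ?_⟩
  · refine fs_key (fun X : List α => min L X.length) ?_ ?_
    · refine (Set.finite_le_nat L).subset ?_
      rintro _ ⟨X, rfl⟩
      exact min_le_left L X.length
    · intro X X' h Y
      simp only [List.length_append, decide_eq_decide] at h ⊢
      omega
  · by_cases hv : v = []
    · subst hv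
      exact ⟨0, fun n _ X Y _ => by rw [pw_nil, pw_nil]⟩
    · refine ⟨L, fun n hn X Y _ => ?_⟩
      have hlen : 1 ≤ v.length := by
        cases v with
        | nil => exact absurd rfl hv
        | cons _ _ => simp
      have h1 : n * 1 ≤ n * v.length := Nat.mul_le_mul_left _ hlen
      have h2 : (n + 1) * 1 ≤ (n + 1) * v.length := Nat.mul_le_mul_left _ hlen
      simp only [List.length_append, pw_length, decide_eq_decide]
      omega
  · have := nc_length (w := w) V c
    simp only [List.length_append, decide_eq_decide]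
    omega

theorem lc_window {B : Type} {β : List α → B} (hβ : Lc w β) (L : ℕ) (F : (ℕ → B) → A) (a : A)
    (hF : Wn L F) : Lc w fun X => if L ≤ X.length then F (fun i => β (X.drop i)) else a := by
  have h1 : Lc w (fun X : List α => (decide (L ≤ X.length),
      (β X, fun i : Fin L => β (X.drop i)))) :=
    lc_prod (lc_len L) (lc_prod hβ (lc_pi fun i => lc_drop hβ i))
  have h2 := lc_comp h1 (fun x : Bool × (B × (Fin L → B)) =>
    if x.1 then F (fun i => if h : i < L then x.2.2 ⟨i, h⟩ else x.2.1) else a)
  have e : (fun X : List α => if L ≤ X.length then F (fun i => β (X.drop i)) else a)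
      = fun X => (fun x : Bool × (B × (Fin L → B)) =>
        if x.1 then F (fun i => if h : i < L then x.2.2 ⟨i, h⟩ else x.2.1) else a)
        (decide (L ≤ X.length), (β X, fun i : Fin L => β (X.drop i))) := by
    funext X
    by_cases hX : L ≤ X.length
    · simp only [hX, decide_true, if_true]
      apply hF
      intro i hi
      simp [hi]
    · simp [hX]
  rw [e]
  exact h2

theorem rowC : RowC := by
  intro α p w
  refine ⟨fun A A' f G h => lc_comp h f, fun A A' G G' h h' => lc_prod h h',
    fun A L G h => lc_pi h, fun _ A G h => lc_tail h, fun _ A G h k => lc_drop h k,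
    fun J => lc_take J, fun h => ⟨h.fs, h.ap, 1, rt_mem h.rt⟩, fun h => stg_unt h,
    fun h hh => unt_lc hh, fun _ B A β hβ L F a hF => lc_window hβ L F a hF⟩

/-! ### row E -/

theorem unc_next (hw : AP w w) (v : List α) : ∃ n0, ∀ n, n0 ≤ n → ∀ X, Unc w (pw v n) X →
    ∀ B, B <:+ v → B ≠ [] → w (B ++ (pw v n ++ X)) = 0 := by
  obtain ⟨n0, h0⟩ := hw v
  refine ⟨n0 + 1, fun n hn X hU B hBv hB => ?_⟩
  obtain ⟨m, rfl⟩ : ∃ m, n = m + 1 := ⟨n - 1, by omega⟩
  rw [← h0 m (by omega) X B (unc_mono hU (pw_suffix _ (Nat.le_succ m))), ← List.append_assoc]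
  refine hU _ ?_ (by simp [hB])
  obtain ⟨t, ht⟩ := hBv
  exact ⟨t, by rw [pw_succ, ← List.append_assoc, ht]⟩

theorem rgG_cons {f : List α → ZMod p} {a : α} {X : List α} :
    rgG w f (a :: X) = if w (a :: X) = 0 then rgG w f X + f (a :: X) else 0 := rfl

theorem rgG_append {f : List α → ZMod p} {X X' : List α} (hw : ∀ Y, w (Y ++ X) = w (Y ++ X'))
    (hf : ∀ Y, f (Y ++ X) = f (Y ++ X')) (h : rgG w f X = rgG w f X') (Y : List α) :
    rgG w f (Y ++ X) = rgG w f (Y ++ X') := by
  induction Y with
  | nil => exact h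
  | cons b Y ih =>
    rw [List.cons_append, List.cons_append, rgG_cons, rgG_cons]
    have h1 := hw (b :: Y)
    have h2 := hf (b :: Y)
    rw [List.cons_append, List.cons_append] at h1 h2
    rw [h1, h2, ih]

theorem rgG_stay {f : List α → ZMod p} {X : List α} : ∀ V : List α,
    (∀ B, B <:+ V → B ≠ [] → w (B ++ X) = 0 ∧ f (B ++ X) = 0) →
    rgG w f (V ++ X) = rgG w f X := by
  intro V
  induction V with
  | nil => intro _; rfl
  | cons b V ih =>
    intro h
    have hb : w (b :: (V ++ X)) = 0 ∧ f (b :: (V ++ X)) = 0 :=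
      h (b :: V) (List.suffix_refl _) (by simp)
    rw [List.cons_append, rgG_cons, if_pos hb.1, hb.2, add_zero]
    exact ih fun B hBV hB => h B (hBV.trans (List.suffix_cons _ _)) hB

theorem lc_rgG [NeZero p] (hw : Stg w) {f : List α → ZMod p} (hf : Lc w f) {J : ℕ}
    (hJ : ∀ X, f X ≠ 0 → ∃ i ≤ J, w (X.drop i) ≠ 0) : Lc w (rgG w f) := by
  refine ⟨?_, fun v => ?_, ?_⟩
  · refine fs_key (fun X : List α => ((fun Y : List α => w (Y ++ X)), (fun Y : List α =>
      f (Y ++ X)), rgG w f X)) ?_ ?_
    · refine ((Set.Finite.prod hw.fs (Set.Finite.prod hf.1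
        (Set.finite_univ (α := ZMod p)))).subset ?_)
      rintro _ ⟨X, rfl⟩
      exact ⟨⟨X, rfl⟩, ⟨X, rfl⟩, Set.mem_univ _⟩
    · intro X X' h Y
      obtain ⟨h1, h2, h3⟩ : _ ∧ _ ∧ _ := by simpa only [Prod.ext_iff] using h
      exact rgG_append (fun Y => congrFun h1 Y) (fun Y => congrFun h2 Y) h3 Y
  · obtain ⟨n1, h1⟩ := hw.ap v
    obtain ⟨n2, h2⟩ := hf.2.1 v
    obtain ⟨n3, h3⟩ := unc_next hw.ap v
    by_cases hv : v = []
    · subst hv
      exact ⟨0, fun n _ X Y _ => by rw [pw_nil, pw_nil]⟩
    have hlen : 1 ≤ v.length := by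
      cases v with
      | nil => exact absurd rfl hv
      | cons _ _ => simp
    refine ⟨n1 + n2 + n3 + J + 1, fun n hn X Y hU => ?_⟩
    refine rgG_append (fun Z => h1 n (by omega) X Z hU) (fun Z => h2 n (by omega) X Z hU) ?_ Y
    rw [pw_succ, List.append_assoc]
    symm
    refine rgG_stay v fun B hBv hB => ⟨h3 n (by omega) X hU B hBv hB, ?_⟩
    by_contra hne
    obtain ⟨i, hi, hc⟩ := hJ _ hne
    apply hc
    -- the `i`-th suffix is still inside the uncut stretch
    by_cases hiB : i < B.length
    · rw [List.drop_append_of_le_length hiB.le]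
      refine h3 n (by omega) X hU _ ((List.drop_suffix i B).trans hBv) ?_
      intro h0
      have := congrArg List.length h0
      simp at this
      omega
    · have hl : i - B.length < (pw v n).length := by
        rw [pw_length]
        have : n * 1 ≤ n * v.length := Nat.mul_le_mul_left _ hlen
        omega
      have e : (B ++ (pw v n ++ X)).drop i = (pw v n).drop (i - B.length) ++ X := by
        rw [List.drop_append, List.drop_append_of_le_length hl.le,
          List.drop_eq_nil_of_le (by omega), List.nil_append]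
      rw [e]
      refine hU _ (List.drop_suffix _ _) ?_
      intro h0
      have := congrArg List.length h0
      simp only [List.length_drop, List.length_nil] at this
      omega
  · obtain ⟨n, hn⟩ := hf.2.2
    refine ⟨max n 1, fun c c' V hc hc' hV => ?_⟩
    have key : ∀ V : List α, max n 1 ≤ nc w V c → rgG w f (V ++ c) = rgG w f (V ++ c') := by
      intro V
      induction V with
      | nil => intro h; simp [nc] at h
      | cons b V ih =>
        intro h
        have hwb : w (b :: (V ++ c)) = w (b :: (V ++ c')) := hw.rt c c' (b :: V) hc hc' (by simp)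
        have hfb : f (b :: (V ++ c)) = f (b :: (V ++ c')) := hn c c' (b :: V) hc hc' (by omega)
        rw [List.cons_append, List.cons_append, rgG_cons, rgG_cons, ← hwb, hfb]
        by_cases hcut : w (b :: (V ++ c)) = 0
        · rw [if_pos hcut, if_pos hcut]
          have hnc : nc w (b :: V) c = nc w V c := by
            rw [nc_cons, if_pos hcut, Nat.add_zero]
          rw [ih (by omega)]
        · rw [if_neg hcut, if_neg hcut]
    exact key V hV

theorem rowE : RowE := by
  intro α p _ w f
  refine ⟨fun X => ?_, fun hw hf hJ => ?_⟩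
  · induction X with
    | nil => simp [N, rgG]
    | cons a X ih =>
      have e1 : N f (a :: X) = N f X + f (a :: X) := rfl
      have e2 : N (rgg w f) (a :: X) = N (rgg w f) X + rgg w f (a :: X) := rfl
      have e3 : rgg w f (a :: X) = if w (a :: X) = 0 then 0 else rgG w f X + f (a :: X) := rfl
      rw [e1, e2, e3, ih, rgG_cons]
      by_cases h : w (a :: X) = 0
      · rw [if_pos h, if_pos h]; ring
      · rw [if_neg h, if_neg h]; ring
  · obtain ⟨J, hJ⟩ := hJ
    have h1 := lc_rgG hw hf hJ
    refine ⟨h1, ?_⟩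
    have h2 := lc_comp (lc_prod (⟨hw.fs, hw.ap, 1, rt_mem hw.rt⟩ : Lc w w)
      (lc_prod (lc_tail h1) hf)) (fun x : ZMod p × ZMod p × ZMod p =>
        if x.1 = 0 then 0 else x.2.1 + x.2.2)
    have e : rgg w f = fun X => (fun x : ZMod p × ZMod p × ZMod p =>
        if x.1 = 0 then 0 else x.2.1 + x.2.2) (w X, (rgG w f X.tail, f X)) := by
      funext X
      cases X with
      | nil => simp [rgg, hw.nil]
      | cons a X => simp [rgg]
    rw [e]
    exact h2

end Vale.Agent.P329.H100.R
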